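import Vale.Agent.P067.Defs
import Vale.Agent.P067.Final

namespace Vale.Agent.Results.P067.Full

open Vale.Agent.P067

theorem result : ∀ d : ℕ, 3 ≤ d → ∃ (D : ℕ) (ε : ℝ), 0 < ε ∧ ∃ X : ℕ → FinComplex,
    Filter.Tendsto (fun m => ((X m).cells 0).card) Filter.atTop Filter.atTop ∧
    ∀ m, (X m).IsPure d ∧ (X m).IsConnected ∧ (X m).DegreeLE d D ∧
      (X m).IsCoboundaryExpander d ε :=
  fun d hd => main d (by omega)

end Vale.Agent.Results.P067.Full
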